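import Mathlib

/-! The curvature-dimension condition of Lott, Villani and Sturm. -/

open MeasureTheory Set
open scoped ENNReal

noncomputable section

namespace Vale.Agent.P242

/-- The distortion coefficient `σ_{K,N}^{(t)}(θ)`. -/
def sigma (K N t θ : ℝ) : ℝ≥0∞ :=
  if N * Real.pi ^ 2 ≤ K * θ ^ 2 then ⊤
  else if 0 < K * θ ^ 2 then
    ENNReal.ofReal (Real.sin (t * θ * √(K / N)) / Real.sin (θ * √(K / N)))
  else if K * θ ^ 2 = 0 then ENNReal.ofReal t
  else ENNReal.ofReal (Real.sinh (t * θ * √(-K / N)) / Real.sinh (θ * √(-K / N)))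

/-- The distortion coefficient `τ_{K,N}^{(t)}(θ)`. -/
def tau (K N t θ : ℝ) : ℝ≥0∞ :=
  ENNReal.ofReal t ^ (1 / N) * sigma K (N - 1) t θ ^ (1 - 1 / N)

/-- Constant speed geodesics `[0,1] → X`. -/
abbrev Geo (X : Type) [MetricSpace X] : Type :=
  {γ : unitInterval → X // ∀ s t, dist (γ s) (γ t) = |(s : ℝ) - t| * dist (γ 0) (γ 1)}

/-- The condition `CD(K,N)`: any two absolutely continuous probability measures with bounded
support are joined by an optimal geodesic plan along which the Renyi entropy is convex in the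
distorted sense. -/
def CD {X : Type} [MetricSpace X] [MeasurableSpace X] (K N : ℝ) (m : Measure X) : Prop :=
  ∀ ρ₀ ρ₁ : X → ℝ≥0∞, Measurable ρ₀ → Measurable ρ₁ → ∫⁻ x, ρ₀ x ∂m = 1 → ∫⁻ x, ρ₁ x ∂m = 1 →
    Bornology.IsBounded (Function.support ρ₀) → Bornology.IsBounded (Function.support ρ₁) →
    ∃ π : Measure (Geo X),
      π.map (fun γ => γ.1 0) = m.withDensity ρ₀ ∧ π.map (fun γ => γ.1 1) = m.withDensity ρ₁ ∧
      (∀ q : Measure (X × X), q.map Prod.fst = m.withDensity ρ₀ →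
        q.map Prod.snd = m.withDensity ρ₁ →
        ∫⁻ γ, edist (γ.1 0) (γ.1 1) ^ 2 ∂π ≤ ∫⁻ z, edist z.1 z.2 ^ 2 ∂q) ∧
      ∀ t : unitInterval,
        ∫⁻ γ, (tau K N (1 - t) (dist (γ.1 0) (γ.1 1)) * ρ₀ (γ.1 0) ^ (-(1 / N)) +
            tau K N t (dist (γ.1 0) (γ.1 1)) * ρ₁ (γ.1 1) ^ (-(1 / N))) ∂π ≤
          ∫⁻ x, (π.map fun γ => γ.1 t).rnDeriv m x ^ (1 - 1 / N) ∂m

end Vale.Agent.P242
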