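import Vale.Agent.P242.Mcp

/-! Volume bounds and the set of points seen behind a small ball. -/

open MeasureTheory Set Metric Filter
open scoped ENNReal Topology

noncomputable section

namespace Vale.Agent.P242

variable {X : Type} [MetricSpace X] [MeasurableSpace X] [BorelSpace X] {n : ℕ} {q R₀ : ℝ}

theorem dens [SecondCountableTopology X] (hf : ∀ S : Set X, Bornology.IsBounded S → μH[n] S ≠ ⊤)
    (h : Con (μH[n] : Measure X) n q R₀) (R0 : 0 < R₀) (hq : 1 < q) {O : Set X} (hO : IsOpen O)
    (O0 : μH[n] O ≠ 0) (bO : Bornology.IsBounded O) :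
    ∃ x ∈ O, ∃ᶠ r in 𝓝[>] 0, (μH[n] : Measure X).real (closedBall x r) < q * (2 * r) ^ n := by
  by_contra! k
  have : IsLocallyFiniteMeasure (μH[n] : Measure X) :=
    ⟨fun x => ⟨_, ball_mem_nhds x one_pos, (hf _ isBounded_ball).lt_top⟩⟩
  have v : ∀ j : ℕ, ∃ u ⊆ {a : X × ℝ | 0 < a.2 ∧ a.2 ≤ 1 / (j + 1) ∧ 4 * a.2 ≤ R₀ ∧
      closedBall a.1 a.2 ⊆ O ∧ q * (2 * a.2) ^ n ≤ (μH[n] : Measure X).real (closedBall a.1 a.2)},
      u.Countable ∧ (u.PairwiseDisjoint fun a => closedBall a.1 a.2) ∧
        μH[n] (O \ ⋃ a ∈ u, closedBall a.1 a.2) = 0 := fun j => by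
    refine Vitali.exists_disjoint_covering_ae' _ O _ (q * 8 ^ n).toNNReal Prod.snd Prod.fst _
      (fun _ _ => Subset.rfl) (fun a ha => ?_) (fun a ha => ⟨a.1, ball_subset_interior_closedBall
        (mem_ball_self ha.1)⟩) (fun _ _ => isClosed_closedBall) fun x hx => ?_
    · have a0 := ha.1
      have b := h a.1 (closedBall a.1 (3 * a.2)) (closedBall a.1 a.2) (1 / 8) (a.2 / 4) (4 * a.2)
        measurableSet_closedBall measurableSet_closedBall (closedBall_subset_ball (by linarith))
        isBounded_closedBall ha.2.2.1 (by linarith) (by linarith) (by norm_num) (by norm_num)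
        fun _ _ _ _ w hw _ _ => ball_subset_closedBall (ball_subset_ball (by linarith) hw)
      rw [← ofReal_measureReal (hf _ isBounded_closedBall),
        ← ofReal_measureReal (hf _ (isBounded_closedBall (r := a.2))),
        ← ENNReal.ofReal, ← ENNReal.ofReal_mul (by positivity)]
      refine ENNReal.ofReal_le_ofReal ?_
      rw [one_div, inv_pow, inv_mul_le_iff₀ (by positivity)] at b
      linarith
    · obtain ⟨e, e0, he⟩ := nhds_basis_closedBall.mem_iff.1 (hO.mem_nhds hx)
      refine Eventually.frequently ?_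
      filter_upwards [k x hx, Ioc_mem_nhdsGT (show 0 < min (min (1 / (j + 1 : ℝ)) (R₀ / 4)) e by
        positivity)] with r a b
      have := b.2
      simp only [le_min_iff] at this
      exact ⟨(x, r), ⟨b.1, this.1.1, by linarith [this.1.2],
        (closedBall_subset_closedBall this.2).trans he, a⟩, rfl, rfl⟩
  choose u u1 u2 u3 u4 using v
  have := fun j => (u2 j).to_subtype
  have b := Measure.hausdorffMeasure_le_liminf_tsum (n : ℝ)
    (O \ ⋃ j, (O \ ⋃ a ∈ u j, closedBall a.1 a.2)) (l := atTop)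
    (fun j : ℕ => ENNReal.ofReal (2 * (1 / (j + 1))))
    (by simpa using ENNReal.tendsto_ofReal (tendsto_one_div_add_atTop_nhds_zero_nat.const_mul 2))
    (fun j (a : u j) => closedBall a.1.1 a.1.2)
    (.of_forall fun j a => ediam_le_of_forall_dist_le fun x hx y hy => by
      linarith [dist_triangle_right x y a.1.1, mem_closedBall.1 hx, mem_closedBall.1 hy,
        (u1 j a.2).2.1])
    (.of_forall fun j x hx => by
      by_contra k
      exact hx.2 (mem_iUnion.2 ⟨j, hx.1, by simpa using k⟩))
  rw [measure_sdiff_null (measure_iUnion_null u4)] at b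
  refine (b.trans (liminf_le_of_frequently_le' (.of_forall fun j => ?_))).not_gt
    (ENNReal.div_lt_of_lt_mul' ((one_mul _).symm.trans_lt
      (ENNReal.mul_lt_mul_left O0 (hf _ bO) (ENNReal.one_lt_ofReal.2 hq))))
  refine (ENNReal.le_div_iff_mul_le (.inl (by simpa using zero_lt_one.trans hq)) (.inl
    ENNReal.ofReal_ne_top)).2 (le_trans ?_ (measure_mono (iUnion₂_subset fun (a : X × ℝ)
      (ha : a ∈ u j) => (u1 j ha).2.2.2.1)))
  rw [measure_biUnion (u2 j) (u3 j) fun _ _ => measurableSet_closedBall, ← ENNReal.tsum_mul_right]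
  refine ENNReal.tsum_le_tsum fun a => ?_
  have a0 := (u1 j a.2).1
  rw [← ofReal_measureReal (hf _ isBounded_closedBall), ENNReal.rpow_natCast, mul_comm]
  refine le_trans ?_ (ENNReal.ofReal_le_ofReal (u1 j a.2).2.2.2.2)
  rw [ENNReal.ofReal_mul (by linarith), ENNReal.ofReal_pow (by linarith)]
  exact mul_le_mul_right (pow_le_pow_left' (ediam_le_of_forall_dist_le fun x hx y hy => by
    linarith [dist_triangle_right x y a.1.1, mem_closedBall.1 hx, mem_closedBall.1 hy]) n) _

theorem upper [SecondCountableTopology X] [(μH[n] : Measure X).IsOpenPosMeasure]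
    (hf : ∀ S : Set X, Bornology.IsBounded S → μH[n] S ≠ ⊤)
    (h : Con (μH[n] : Measure X) n q R₀) (hq : 1 < q) (x : X) {s : ℝ} (s0 : 0 < s)
    (hs : q * s ≤ R₀) : (μH[n] : Measure X).real (ball x s) ≤ q ^ (2 * n + 2) * (2 * s) ^ n := by
  have q0 : 0 < q := by linarith
  have p : 0 < (q - 1) * s := mul_pos (by linarith) s0
  obtain ⟨y, hy, k⟩ := dens hf h ((mul_pos q0 s0).trans_le hs) hq isOpen_ball
    (measure_ball_pos _ x p).ne' isBounded_ball
  obtain ⟨r, a, r0, b⟩ := (k.and_eventually (Ioc_mem_nhdsGT (mul_pos q0 s0))).exists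
  have e : r / q ≤ r := div_le_self r0.le hq.le
  have c := h y (ball x s) (closedBall y r) (r / q / (q * s)) ((r - r / q) / 2) (q * s)
    measurableSet_ball measurableSet_closedBall (ball_subset_ball' (by
      linarith [mem_ball'.1 hy])) isBounded_closedBall hs
    (half_pos (sub_pos.2 (div_lt_self r0 hq))) (by linarith [div_pos r0 q0]) (by positivity)
    ((div_le_one (by positivity)).2 (e.trans b)) fun _ _ _ _ w hw _ _ =>
      ball_subset_closedBall (ball_subset_ball (by
        rw [div_mul_cancel₀ _ (by positivity)]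
        linarith) hw)
  refine le_of_mul_le_mul_left (c.trans ((mul_le_mul_of_nonneg_left a.le q0.le).trans_eq ?_))
    (by positivity)
  simp only [div_pow, mul_pow]
  field_simp
  ring

theorem good {m : Measure X} (hf : ∀ S : Set X, Bornology.IsBounded S → m S ≠ ⊤)
    (h : Con m n q R₀) (hq : 1 < q) {ε R : ℝ} (hε : ε = (16 ^ n)⁻¹ / 18)
    (hQ : q ^ (3 * n + 3) ≤ 1 + ε) (hq' : q ≤ 9 / 8) (hR : R ≤ R₀)
    (hU : ∀ x s, 0 < s → q * s ≤ R₀ → m.real (ball x s) ≤ q ^ (2 * n + 2) * (2 * s) ^ n)
    {x y : X} (hx : (1 - 2 * ε) * (2 * R) ^ n ≤ m.real (ball x R))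
    (hy : (1 - 2 * ε) * (2 * R) ^ n ≤ m.real (ball y R)) (r0 : 0 < dist x y)
    (hr : 4 * dist x y ≤ R) :
    3 * ε * (2 * R) ^ n ≤ m.real (ball x R ∩ {z | dist x y / 4 ≤ dist x z - dist y z}) := by
  obtain ⟨r, hr'⟩ : ∃ r, r = dist x y := ⟨_, rfl⟩
  rw [← hr'] at r0 hr ⊢
  have R0 : 0 < R := by linarith
  have e1 : ε ≤ 1 / 18 := hε ▸ div_le_div_of_nonneg_right
    (inv_le_one_of_one_le₀ (one_le_pow₀ (by norm_num))) (by norm_num)
  have mS : MeasurableSet {z | r / 4 ≤ dist x z - dist y z} :=
    (isClosed_le continuous_const (by fun_prop)).measurableSet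
  obtain ⟨V, hV⟩ : ∃ V, V = (2 * R) ^ n := ⟨_, rfl⟩
  obtain ⟨T, hT⟩ : ∃ T, T = (2 * r / R) ^ n := ⟨_, rfl⟩
  have V0 : 0 < V := hV ▸ by positivity
  have T0 : 0 < T := hT ▸ by positivity
  have a := h y (ball y R) (ball y (r / 4)) (2 * r / R / 16) (r / 16) R measurableSet_ball
    measurableSet_ball Subset.rfl isBounded_ball hR (by linarith) (by linarith) (by positivity)
    (by rw [div_div, div_le_one (by positivity)]; linarith) fun _ _ _ _ w hw _ _ =>
      ball_subset_ball (le_of_eq (by field_simp; norm_num)) hw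
  have qr : (q - 1) * r ≤ r / 8 := by nlinarith
  have b := h x (ball x R \ {z | r / 4 ≤ dist x z - dist y z})
    (ball x (q * (2 * r)) \ ball y (r / 4)) (2 * r / R) ((q - 1) * r) R
    (measurableSet_ball.diff mS) (measurableSet_ball.diff measurableSet_ball) sdiff_subset
    (isBounded_ball.subset sdiff_subset) hR (mul_pos (by linarith) r0) (by linarith) (by positivity)
    ((div_le_one R0).2 (by linarith)) fun a ha z hz w hw h1 h2 =>
      ⟨ball_subset_ball (le_of_eq (by field_simp; ring)) hw, fun k => hz.2 (by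
        have := dist_triangle y w z
        have := dist_triangle4 x a w y
        have := dist_triangle a x z
        have := dist_comm x a
        have := dist_comm y w
        simp only [mem_ball, mem_ofPred_eq] at *
        linarith)⟩
  rw [measureReal_sdiff (ball_subset_ball' (by rw [dist_comm, ← hr']; nlinarith))
    measurableSet_ball (hf _ isBounded_ball), ← hT] at b
  have c := hU x (q * (2 * r)) (by positivity) (by nlinarith)
  have d := measureReal_inter_add_sdiff (μ := m) (s := ball x R) mS (hf _ isBounded_ball)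
  have f : q * (q ^ (2 * n + 2) * (2 * (q * (2 * r))) ^ n) = q ^ (3 * n + 3) * (T * V) := by
    rw [hT, hV, ← mul_pow, show 2 * r / R * (2 * R) = 2 * (2 * r) by field_simp]
    simp only [mul_pow]
    ring
  rw [div_pow, ← hT, div_eq_mul_inv T, show ((16 : ℝ) ^ n)⁻¹ = 18 * ε by rw [hε]; ring] at a
  rw [← hV] at hx hy ⊢
  have ε0 : 0 < ε := hε ▸ by positivity
  have g := mul_le_mul_of_nonneg_left hy (show 0 ≤ T * (18 * ε) by positivity)
  have i := mul_le_mul_of_nonneg_left c (show 0 ≤ q by linarith)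
  have j := mul_le_mul_of_nonneg_right hQ (mul_pos T0 V0).le
  have l := mul_le_mul_of_nonneg_left hx T0.le
  have o := mul_le_mul_of_nonneg_left e1 (show 0 ≤ T * V * ε by positivity)
  refine le_of_mul_le_mul_left ?_ T0
  rw [← d, mul_add] at l
  nlinarith [mul_pos (mul_pos T0 V0) ε0]

omit [BorelSpace X] in
/-- The embedding by distance functions. -/
theorem emb [OpensMeasurableSpace X] {m : Measure X} {p : X} {R V : ℝ} (V0 : 0 < V)
    (hf : m (ball p R) ≠ ⊤) : ∃ F : X → Lp ℝ 2 (m.restrict (ball p R)), ∀ x y,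
      ‖F x - F y‖ ^ 2 ≤ dist x y ^ 2 * (m.real (ball p R) / V) ∧ ∀ (S : Set X) (c : ℝ),
        MeasurableSet S → S ⊆ ball p R → 0 ≤ c → (∀ z ∈ S, c ≤ dist x z - dist y z) →
        c ^ 2 * (m.real S / V) ≤ ‖F x - F y‖ ^ 2 := by
  have : IsFiniteMeasure (m.restrict (ball p R)) := isFiniteMeasure_restrict.2 hf
  have k : ∀ x, MemLp (fun z => dist x z / √V) 2 (m.restrict (ball p R)) := fun x => by
    refine .of_bound (Continuous.aestronglyMeasurable (by fun_prop)) ((dist x p + R) / √V) ?_
    filter_upwards [ae_restrict_mem measurableSet_ball] with z hz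
    rw [Real.norm_of_nonneg (by positivity)]
    exact div_le_div_of_nonneg_right ((dist_triangle_right x z p).trans
      (by linarith [mem_ball.1 hz])) (Real.sqrt_nonneg _)
  refine ⟨fun x => (k x).toLp, fun x y => ?_⟩
  have e : ‖(k x).toLp - (k y).toLp‖ ^ 2 = ∫ z in ball p R, (dist x z - dist y z) ^ 2 / V ∂m := by
    rw [← real_inner_self_eq_norm_sq, ← MemLp.toLp_sub, L2.inner_def]
    refine integral_congr_ae (((k x).sub (k y)).coeFn_toLp.mono fun z hz => ?_)
    simp only [hz, real_inner_self_eq_norm_sq, Pi.sub_apply, Real.norm_eq_abs, sq_abs, ← sub_div,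
      div_pow, Real.sq_sqrt V0.le]
  have b : ∀ z, (dist x z - dist y z) ^ 2 / V ≤ dist x y ^ 2 / V := fun z =>
    div_le_div_of_nonneg_right (sq_le_sq' (by linarith [dist_triangle_left y z x, dist_comm x y])
      (by linarith [dist_triangle x y z])) V0.le
  have i : Integrable (fun z => (dist x z - dist y z) ^ 2 / V) (m.restrict (ball p R)) :=
    .of_bound (Continuous.aestronglyMeasurable (by fun_prop)) _ (.of_forall fun z =>
      (Real.norm_of_nonneg (by positivity)).trans_le (b z))
  rw [e]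
  refine ⟨(integral_mono i (integrable_const _) b).trans_eq (by simp; ring),
    fun S c mS hS c0 hc => le_trans ?_ (setIntegral_mono_set i (.of_forall fun z => by positivity)
      hS.eventuallyLE)⟩
  refine le_trans (le_of_eq (by ring)) (setIntegral_ge_of_const_le_real (c := c ^ 2 / V) mS
    (ne_top_of_le_ne_top hf (measure_mono hS)) (fun z hz => div_le_div_of_nonneg_right
      (pow_le_pow_left₀ c0 (hc z hz) 2) V0.le) (IntegrableOn.mono_set i hS))

end Vale.Agent.P242
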