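import Vale.Agent.P242.Defs

/-! Measure contraction from the curvature-dimension condition. -/

open MeasureTheory Set Metric Filter
open scoped ENNReal Topology

noncomputable section

namespace Vale.Agent.P242

theorem sigma_ge {K N t θ a : ℝ} (hN : 0 < N) (t0 : 0 ≤ t) (t1 : t ≤ 1) (hθ : 0 ≤ θ)
    (ha : θ * √(-K / N) ≤ a) : ENNReal.ofReal (Real.exp (-a) * t) ≤ sigma K N t θ := by
  have a0 : 0 ≤ a := le_trans (by positivity) ha
  have e : Real.exp (-a) * t ≤ t :=
    mul_le_of_le_one_left t0 (Real.exp_le_one_iff.2 (neg_nonpos.2 a0))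
  unfold sigma
  split_ifs with h1 h2 h3
  · exact le_top
  · refine ENNReal.ofReal_le_ofReal (e.trans ?_)
    have K0 : 0 < K := pos_of_mul_pos_left h2 (sq_nonneg θ)
    have θ0 : 0 < θ := hθ.lt_of_ne fun k => by simp [← k] at h2
    have p : 0 < θ * √(K / N) := by positivity
    have l : θ * √(K / N) < Real.pi := by
      refine lt_of_pow_lt_pow_left₀ 2 Real.pi_pos.le ?_
      rw [mul_pow, Real.sq_sqrt (by positivity), ← mul_div_assoc, div_lt_iff₀ hN]
      linarith [not_le.1 h1]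
    rw [le_div_iff₀ (Real.sin_pos_of_pos_of_lt_pi p l)]
    simpa [mul_assoc] using strictConcaveOn_sin_Icc.concaveOn.2 ⟨p.le, l.le⟩
      ⟨le_rfl, Real.pi_pos.le⟩ t0 (sub_nonneg.2 t1) (add_sub_cancel _ _)
  · exact ENNReal.ofReal_le_ofReal e
  · refine ENNReal.ofReal_le_ofReal ?_
    have k : K * θ ^ 2 < 0 := (not_lt.1 h2).lt_of_ne h3
    have K0 : 0 < -K := neg_pos.2 (neg_of_mul_neg_left k (sq_nonneg θ))
    have θ0 : 0 < θ := hθ.lt_of_ne fun k => by simp [← k] at h3
    rw [mul_assoc]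
    obtain ⟨b, hb⟩ : ∃ b, b = θ * √(-K / N) := ⟨_, rfl⟩
    have p : 0 < b := hb ▸ by positivity
    rw [← hb] at ha ⊢
    rw [le_div_iff₀ (Real.sinh_pos_iff.2 p)]
    refine le_trans ?_ (Real.self_le_sinh_iff.2 (by positivity))
    have s : Real.exp (-b) * Real.sinh b ≤ b := by
      have := Real.add_one_le_exp (-b + -b)
      rw [Real.sinh_eq, ← mul_div_assoc, mul_sub, ← Real.exp_add, ← Real.exp_add, neg_add_cancel,
        Real.exp_zero]
      linarith
    rw [mul_comm _ t, mul_assoc]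
    exact mul_le_mul_of_nonneg_left ((mul_le_mul_of_nonneg_right
      (Real.exp_le_exp.2 (neg_le_neg ha)) (Real.sinh_pos_iff.2 p).le).trans s) t0

theorem tau_ge {K N t θ a : ℝ} (hN : 1 < N) (t0 : 0 ≤ t) (t1 : t ≤ 1) (hθ : 0 ≤ θ)
    (ha : θ * √(-K / (N - 1)) ≤ a) : ENNReal.ofReal (Real.exp (-a) * t) ≤ tau K N t θ := by
  have a0 : 0 ≤ a := le_trans (by positivity) ha
  have p : 0 ≤ 1 / N := by positivity
  have q : 0 ≤ 1 - 1 / N := sub_nonneg.2 ((div_le_one (by linarith)).2 hN.le)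
  rw [← ENNReal.rpow_one (ENNReal.ofReal _), ← add_sub_cancel (1 / N) 1,
    ENNReal.rpow_add_of_nonneg _ _ p q]
  exact mul_le_mul' (ENNReal.rpow_le_rpow (ENNReal.ofReal_le_ofReal (mul_le_of_le_one_left t0
    (Real.exp_le_one_iff.2 (neg_nonpos.2 a0)))) p)
    (ENNReal.rpow_le_rpow (sigma_ge (sub_pos.2 hN) t0 t1 hθ ha) q)

variable {X : Type} [MetricSpace X] [MeasurableSpace X] {m : Measure X} {K : ℝ} {n : ℕ}

theorem mcp (h : CD K n m) (hn : 2 ≤ n) {A Z W : Set X} (hA : MeasurableSet A)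
    (hZ : MeasurableSet Z) (hW : MeasurableSet W) (A0 : m A ≠ 0) (At : m A ≠ ⊤) (Zt : m Z ≠ ⊤)
    (bA : Bornology.IsBounded A) (bZ : Bornology.IsBounded Z) (t : unitInterval) {c : ℝ≥0∞}
    (hc : ∀ a ∈ A, ∀ z ∈ Z, c ≤ tau K n t (dist a z))
    (hw : ∀ a ∈ A, ∀ z ∈ Z, ∀ w, dist a w = t * dist a z → dist w z = (1 - t) * dist a z →
      w ∈ W) : c ^ n * m Z ≤ m W := by
  rcases eq_or_ne (m Z) 0 with Z0 | Z0
  · simp [Z0]
  have i : ∀ {S : Set X}, MeasurableSet S → m S ≠ 0 → m S ≠ ⊤ →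
      ∫⁻ x, S.indicator (fun _ => (m S)⁻¹) x ∂m = 1 := fun a b c => by
    rw [lintegral_indicator_const a, ENNReal.inv_mul_cancel b c]
  have ev : ∀ s, Measurable fun γ : Geo X => γ.1 s := fun s =>
    (measurable_pi_apply s).comp measurable_subtype_coe
  obtain ⟨π, p0, p1, -, p⟩ := h _ _ (measurable_const.indicator hA) (measurable_const.indicator hZ)
    (i hA A0 At) (i hZ Z0 Zt) (bA.subset support_indicator_subset)
    (bZ.subset support_indicator_subset)
  have ae : ∀ {S : Set X} {s}, MeasurableSet S → π.map (fun γ => γ.1 s) =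
      m.withDensity (S.indicator fun _ => (m S)⁻¹) → ∀ᵐ γ ∂π, γ.1 s ∈ S := fun a e => by
    refine ae_of_ae_map (p := (· ∈ _)) (ev _).aemeasurable ?_
    rw [e, withDensity_indicator a]
    exact withDensity_absolutelyContinuous _ _ (ae_restrict_mem a)
  have u : ∀ s, (π.map fun γ => γ.1 s) univ = 1 := fun s => by
    have := congrArg (· univ) p1
    simp only [Measure.map_apply (ev _) .univ, preimage_univ, withDensity_apply _ .univ,
      Measure.restrict_univ, i hZ Z0 Zt] at this ⊢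
    exact this
  have u1 : π univ = 1 := by simpa [Measure.map_apply (ev _) .univ] using u 0
  have n0 : n ≠ 0 := by omega
  have q0 : (0 : ℝ) < 1 / n := by positivity
  have q1 : (0 : ℝ) < 1 - 1 / n := sub_pos.2 ((div_lt_one (by positivity)).2 (by exact_mod_cast hn))
  have z : ∀ᵐ x ∂m, x ∈ Wᶜ → (π.map fun γ => γ.1 t).rnDeriv m x = 0 := by
    refine (setLIntegral_eq_zero_iff hW.compl (Measure.measurable_rnDeriv _ _)).1
      (le_antisymm ((Measure.setLIntegral_rnDeriv_le _).trans_eq ?_) zero_le)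
    rw [Measure.map_apply (ev _) hW.compl]
    filter_upwards [ae hA p0, ae hZ p1] with γ a b
    refine hw _ a _ b _ ?_ ?_
    · rw [γ.2 0 t]
      simp [abs_of_nonneg t.2.1]
    · rw [γ.2 t 1, abs_sub_comm]
      simp [abs_of_nonneg (sub_nonneg.2 t.2.2)]
  have k : c * m Z ^ (1 / n : ℝ) ≤ m W ^ (1 / n : ℝ) :=
    calc _ = ∫⁻ _, c * m Z ^ (1 / n : ℝ) ∂π := by rw [lintegral_const, u1, mul_one]
      _ ≤ _ := by
          refine le_trans (lintegral_mono_ae ?_) (p t)
          filter_upwards [ae hA p0, ae hZ p1] with γ a b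
          rw [indicator_of_mem b, ENNReal.inv_rpow, ENNReal.rpow_neg (m Z), inv_inv]
          exact (mul_le_mul_left (hc _ a _ b) _).trans le_add_self
      _ = ∫⁻ x, (π.map fun γ => γ.1 t).rnDeriv m x ^ (1 - 1 / n : ℝ) *
            W.indicator 1 x ^ (1 / n : ℝ) ∂m := by
          refine lintegral_congr_ae (z.mono fun x hx => ?_)
          by_cases k : x ∈ W
          · simp [k]
          · simp only [hx k, ENNReal.zero_rpow_of_pos q1, zero_mul]
      _ ≤ _ := by
          refine (ENNReal.lintegral_mul_norm_pow_le (Measure.measurable_rnDeriv _ _).aemeasurable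
            (measurable_one.indicator hW).aemeasurable q1.le q0.le (sub_add_cancel _ _)).trans ?_
          rw [lintegral_indicator_one hW]
          exact mul_le_of_le_one_left' (ENNReal.rpow_le_one
            (Measure.lintegral_rnDeriv_le.trans_eq (u t)) q1.le)
  simpa only [mul_pow, one_div, ENNReal.rpow_inv_natCast_pow n0] using pow_le_pow_left' k n

/-- Contraction towards a point at small scales. -/
def Con (m : Measure X) (n : ℕ) (q R₀ : ℝ) : Prop :=
  ∀ (x : X) (Z W : Set X) (t η R : ℝ), MeasurableSet Z → MeasurableSet W → Z ⊆ ball x R →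
    Bornology.IsBounded W → R ≤ R₀ → 0 < η → η ≤ R → 0 ≤ t → t ≤ 1 →
    (∀ a ∈ ball x η, ∀ z ∈ Z, ∀ w ∈ ball x (t * R + 2 * η), dist a w = t * dist a z →
      dist w z = (1 - t) * dist a z → w ∈ W) → t ^ n * m.real Z ≤ q * m.real W

theorem con [OpensMeasurableSpace X] [m.IsOpenPosMeasure] (h : CD K n m) (hn : 2 ≤ n)
    (hf : ∀ S, Bornology.IsBounded S → m S ≠ ⊤) {q : ℝ} (hq : 1 < q) :
    ∃ R₀ > 0, Con m n q R₀ := by
  obtain ⟨s, hs⟩ : ∃ s, s = √(-K / (n - 1)) := ⟨_, rfl⟩
  have c : ContinuousAt (fun R : ℝ => q * Real.exp (-(2 * R * s)) ^ n) 0 := by fun_prop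
  obtain ⟨R₀, k, R0⟩ := (((continuousAt_const.eventually_lt c (show (1 : ℝ) < _ by
    simpa using hq)).filter_mono nhdsWithin_le_nhds).and (self_mem_nhdsWithin (s := Ioi 0))).exists
  refine ⟨R₀, R0, fun x Z W t η R hZ hW zR bW hR η0 ηR t0 t1 hw => ?_⟩
  have bZ := isBounded_ball.subset zR
  have d : ∀ a ∈ ball x η, ∀ z ∈ Z, dist a z ≤ η + R := fun a ha z hz =>
    (dist_triangle_right a z x).trans (add_le_add (le_of_lt ha) (le_of_lt (zR hz)))
  have b := mcp h hn measurableSet_ball hZ hW (measure_ball_pos m x η0).ne' (hf _ isBounded_ball)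
    (hf _ bZ) isBounded_ball bZ ⟨t, t0, t1⟩ (fun a ha z hz => tau_ge (a := 2 * R₀ * s)
      (by exact_mod_cast hn) t0 t1 dist_nonneg (hs ▸ mul_le_mul_of_nonneg_right
        ((d a ha z hz).trans (by linarith)) (hs ▸ Real.sqrt_nonneg _)))
    fun a ha z hz w h1 h2 => hw a ha z hz w (by
      have := dist_triangle_left w x a
      have := mul_le_mul_of_nonneg_left (d a ha z hz) t0
      have := mul_le_of_le_one_left η0.le t1
      have := mem_ball.1 ha
      rw [mem_ball]
      change dist a w = t * _ at h1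
      linarith) h1 h2
  have b' := ENNReal.toReal_mono (hf _ bW) b
  rw [ENNReal.toReal_mul, ENNReal.toReal_pow, ENNReal.toReal_ofReal (by positivity), mul_pow,
    mul_assoc] at b'
  exact (le_mul_of_one_le_left (by positivity) k.le).trans ((mul_assoc _ _ _).trans_le
    (mul_le_mul_of_nonneg_left b' (by linarith)))

end Vale.Agent.P242
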